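import Mathlib

/-!
# Row 71: counting lemmas
-/

set_option autoImplicit false

namespace Crest.Agent.R71

open Finset

/-- Greedy capture. -/
theorem greedy {X U : Type} [Fintype X] [Nonempty U] (p : X → ℝ) (hp : ∀ x, 0 ≤ p x)
    (hp1 : ∑ x, p x ≤ 1) (E : U → X → Prop) {N : ℕ} (hN : 0 < N) :
    ∃ g : Fin N → U, ∀ u, ∑ x, (open Classical in
      if E u x ∧ ∀ t, ¬ E (g t) x then p x else 0) ≤ 1 / (N : ℝ) := by
  classical
  have hN' : (0 : ℝ) < N := by exact_mod_cast hN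
  have key : ∀ n : ℕ, ∃ g : Fin n → U,
      (∀ u, ∑ x, (if E u x ∧ ∀ t, ¬ E (g t) x then p x else 0) ≤ 1 / (N : ℝ)) ∨
      (n : ℝ) * (1 / N) ≤ ∑ x, (if ∀ t, ¬ E (g t) x then 0 else p x) := by
    intro n
    induction n with
    | zero => exact ⟨Fin.elim0, Or.inr (by simp)⟩
    | succ n ih =>
      obtain ⟨g, hg⟩ := ih
      by_cases h : ∀ u, ∑ x, (if E u x ∧ ∀ t, ¬ E (g t) x then p x else 0) ≤ 1 / (N : ℝ)
      · refine ⟨Fin.cons (Classical.arbitrary U) g, Or.inl fun u => le_trans ?_ (h u)⟩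
        refine sum_le_sum fun x _ => ?_
        simp only [Fin.forall_fin_succ, Fin.cons_zero, Fin.cons_succ]
        split_ifs with h1 h2
        · exact le_rfl
        · exact absurd ⟨h1.1, h1.2.2⟩ h2
        · exact hp x
        · exact le_rfl
      · have hg' := hg.resolve_left h
        push Not at h
        obtain ⟨u, hu⟩ := h
        refine ⟨Fin.cons u g, Or.inr ?_⟩
        have h1 : ∑ x, (if ∀ t, ¬ E ((Fin.cons u g : Fin (n + 1) → U) t) x then 0 else p x) =
            ∑ x, (if ∀ t, ¬ E (g t) x then 0 else p x) +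
              ∑ x, (if E u x ∧ ∀ t, ¬ E (g t) x then p x else 0) := by
          rw [← sum_add_distrib]
          refine sum_congr rfl fun x _ => ?_
          simp only [Fin.forall_fin_succ, Fin.cons_zero, Fin.cons_succ]
          by_cases h2 : E u x <;> by_cases h3 : ∀ t, ¬ E (g t) x <;> simp [h2, h3]
        rw [h1]
        push_cast
        linarith
  obtain ⟨g, hg | hg⟩ := key N
  · exact ⟨g, fun u => by convert hg u⟩
  · refine ⟨g, fun u => ?_⟩
    rw [mul_one_div_cancel hN'.ne'] at hg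
    have h1 : ∑ x, (if E u x ∧ ∀ t, ¬ E (g t) x then p x else 0) +
        ∑ x, (if ∀ t, ¬ E (g t) x then 0 else p x) ≤ ∑ x, p x := by
      rw [← sum_add_distrib]
      refine sum_le_sum fun x _ => ?_
      by_cases h2 : E u x <;> by_cases h3 : ∀ t, ¬ E (g t) x <;> simp [h2, h3, hp x]
    have h2 : (0 : ℝ) ≤ 1 / N := by positivity
    have h3 : ∑ x, (if E u x ∧ ∀ t, ¬ E (g t) x then p x else 0) ≤ 1 / (N : ℝ) := by linarith
    convert h3

/-- Functions that are prescribed outside `T`. -/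
noncomputable def fixS {Ω β : Type} [Fintype Ω] [DecidableEq Ω] [Fintype β] (T : Finset Ω)
    (d : Ω → β) : Finset (Ω → β) :=
  Fintype.piFinset fun c => if c ∈ T then univ else {d c}

theorem mem_fixS {Ω β : Type} [Fintype Ω] [DecidableEq Ω] [Fintype β] {T : Finset Ω}
    {d u : Ω → β} : u ∈ fixS T d ↔ ∀ c, c ∉ T → u c = d c := by
  rw [fixS, Fintype.mem_piFinset]
  refine forall_congr' fun c => ?_
  split_ifs with h <;> simp [h]

theorem card_fixS {Ω β : Type} [Fintype Ω] [DecidableEq Ω] [Fintype β] (T : Finset Ω)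
    (d : Ω → β) : (fixS T d).card = Fintype.card β ^ T.card := by
  rw [fixS, Fintype.card_piFinset]
  simp only [apply_ite Finset.card, card_univ, card_singleton]
  rw [prod_ite_mem, univ_inter, prod_const]

/-- Pairwise disjoint `ρ`-sets from a family that meets every half of the ground set. -/
theorem exists_matching {Λ : Type} [Fintype Λ] [DecidableEq Λ] (P : Finset Λ → Prop) {ρ M : ℕ}
    (hρ : 0 < ρ) (hL : 2 * ρ * M ≤ Fintype.card Λ) (hmono : ∀ R R', R ⊆ R' → P R → P R')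
    (h : ∀ I : Finset Λ, Fintype.card Λ ≤ 2 * I.card → ∃ R ⊆ I, R.card ≤ ρ ∧ P R) :
    ∃ 𝓡 : Finset (Finset Λ), 𝓡.card = M ∧ (∀ R ∈ 𝓡, R.card = ρ ∧ P R) ∧
      ∀ R ∈ 𝓡, ∀ R' ∈ 𝓡, R ≠ R' → Disjoint R R' := by
  have key : ∀ j ≤ M, ∃ 𝓡 : Finset (Finset Λ), 𝓡.card = j ∧ (∀ R ∈ 𝓡, R.card = ρ ∧ P R) ∧
      ∀ R ∈ 𝓡, ∀ R' ∈ 𝓡, R ≠ R' → Disjoint R R' := by
    intro j
    induction j with
    | zero => exact fun _ => ⟨∅, rfl, by simp, by simp⟩
    | succ j ih =>
      intro hj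
      obtain ⟨𝓡, h1, h2, h3⟩ := ih (by omega)
      have h4 : (𝓡.biUnion id).card ≤ j * ρ := by
        rw [← h1]
        exact card_biUnion_le_card_mul _ _ _ fun R hR => (h2 R hR).1.le
      have h5 : (𝓡.biUnion id)ᶜ.card + (𝓡.biUnion id).card = Fintype.card Λ := card_compl_add_card _
      have h6 : (j + 1) * ρ ≤ M * ρ := Nat.mul_le_mul_right _ hj
      have h7 : 2 * ρ * M = 2 * (M * ρ) := by ring
      rw [add_mul, one_mul] at h6
      obtain ⟨R, hR, hR1, hR2⟩ := h (𝓡.biUnion id)ᶜ (by omega)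
      obtain ⟨R', hR3, hR4, hR5⟩ := exists_subsuperset_card_eq hR hR1 (by omega)
      have hd : ∀ S ∈ 𝓡, Disjoint R' S := fun S hS => disjoint_left.2 fun r hr hr' =>
        mem_compl.1 (hR4 hr) (mem_biUnion.2 ⟨S, hS, hr'⟩)
      have hn : R' ∉ 𝓡 := fun hm => by
        have := disjoint_self.1 (hd R' hm)
        rw [this] at hR5
        simp at hR5
        omega
      refine ⟨insert R' 𝓡, by rw [card_insert_of_notMem hn, h1], fun S hS => ?_,
        fun S hS S' hS' hne => ?_⟩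
      · rcases mem_insert.1 hS with rfl | hS
        · exact ⟨hR5, hmono _ _ hR3 hR2⟩
        · exact h2 S hS
      · rcases mem_insert.1 hS with e1 | e1 <;> rcases mem_insert.1 hS' with e2 | e2
        · exact absurd (e1.trans e2.symm) hne
        · rw [e1]; exact hd _ e2
        · rw [e2]; exact (hd _ e1).symm
        · exact h3 S e1 S' e2 hne
  exact key M le_rfl

theorem card_Z {Λ : Type} [Fintype Λ] [DecidableEq Λ] {q : ℕ} [NeZero q] (R : Finset Λ) :
    ∑ c : Λ → Fin q, (if ∀ r ∈ R, c r = 0 then (1 : ℝ) else 0) =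
      (q : ℝ) ^ Fintype.card Λ / (q : ℝ) ^ R.card := by
  have hq : (q : ℝ) ≠ 0 := by exact_mod_cast NeZero.ne q
  have h1 : (univ.filter fun c : Λ → Fin q => ∀ r ∈ R, c r = 0) = fixS Rᶜ fun _ => 0 := by
    ext c
    simp [mem_fixS]
  rw [sum_boole, h1, card_fixS, Fintype.card_fin, eq_div_iff (pow_ne_zero _ hq)]
  push_cast
  rw [← pow_add, card_compl_add_card]

/-- A set that contains a small subcube inside every half of the coordinates is large. -/
theorem large {Λ : Type} [Fintype Λ] [DecidableEq Λ] {q : ℕ} [NeZero q] {ρ : ℕ} (hρ : 0 < ρ)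
    (hL : 2 * ρ * q ^ ρ ≤ Fintype.card Λ) (S : Finset (Λ → Fin q))
    (h : ∀ I : Finset Λ, Fintype.card Λ ≤ 2 * I.card →
      ∃ R ⊆ I, R.card ≤ ρ ∧ ∀ c : Λ → Fin q, (∀ r ∈ R, c r = 0) → c ∈ S) :
    Fintype.card (Λ → Fin q) ≤ 2 * S.card := by
  obtain ⟨𝓡, h1, h2, h3⟩ := exists_matching
    (fun R => ∀ c : Λ → Fin q, (∀ r ∈ R, c r = 0) → c ∈ S) hρ hL
    (fun R R' hR hP c hc => hP c fun r hr => hc r (hR hr)) h
  have hq : (0 : ℝ) < q := by exact_mod_cast Nat.pos_of_ne_zero (NeZero.ne q)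
  set s : ℝ := (q : ℝ) ^ Fintype.card Λ with hs
  set M : ℝ := (q : ℝ) ^ ρ with hM
  have hs0 : 0 < s := by positivity
  have hM0 : 0 < M := by positivity
  have hc : (𝓡.card : ℝ) = M := by rw [h1]; push_cast; rfl
  let e : Finset Λ → (Λ → Fin q) → ℝ := fun R c => if ∀ r ∈ R, c r = 0 then 1 else 0
  have e1 : ∑ c, ∑ R ∈ 𝓡, e R c = s := by
    rw [sum_comm, sum_congr rfl fun R hR => (card_Z R).trans (by rw [(h2 R hR).1]), sum_const,
      nsmul_eq_mul, hc, ← hs, ← hM]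
    field_simp
  have e2 : ∑ c, (∑ R ∈ 𝓡, e R c) ^ 2 ≤ 2 * s := by
    have h4 : ∀ R ∈ 𝓡, ∀ R' ∈ 𝓡, ∑ c, e R c * e R' c ≤
        (if R = R' then s / M else 0) + s / M ^ 2 := by
      intro R hR R' hR'
      have h5 : ∀ c, e R c * e R' c = e (R ∪ R') c := fun c => by
        simp only [e, forall_mem_union]
        by_cases h6 : ∀ r ∈ R, c r = 0 <;> by_cases h7 : ∀ r ∈ R', c r = 0
        · rw [if_pos h6, if_pos h7, if_pos ⟨h6, h7⟩, one_mul]
        · rw [if_neg h7, mul_zero, if_neg fun h8 => h7 (And.right h8)]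
        · rw [if_neg h6, zero_mul, if_neg fun h8 => h6 (And.left h8)]
        · rw [if_neg h6, zero_mul, if_neg fun h8 => h6 (And.left h8)]
      simp only [h5]
      rw [card_Z]
      split_ifs with h6
      · subst h6
        rw [union_self, (h2 R hR).1]
        exact le_add_of_nonneg_right (by positivity)
      · rw [card_union_of_disjoint (h3 R hR R' hR' h6), (h2 R hR).1, (h2 R' hR').1, zero_add,
          pow_add, sq]
    simp only [sq, sum_mul_sum]
    rw [sum_comm]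
    refine (sum_le_sum fun R hR => (le_of_eq sum_comm).trans
      (sum_le_sum fun R' hR' => h4 R hR R' hR')).trans (le_of_eq ?_)
    simp only [sum_add_distrib, sum_const, nsmul_eq_mul, hc]
    rw [sum_congr rfl fun R hR => by rw [sum_ite_eq, if_pos hR], sum_const, nsmul_eq_mul, hc]
    field_simp
    norm_num
  have e3 : ∀ c, 3 * (∑ R ∈ 𝓡, e R c) - (∑ R ∈ 𝓡, e R c) ^ 2 ≤
      2 * if c ∈ S then (1 : ℝ) else 0 := by
    intro c
    split_ifs with h4
    · simp only [e]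
      rw [sum_boole]
      generalize (𝓡.filter fun R => ∀ r ∈ R, c r = 0).card = n
      rcases n with _ | _ | n
      · simp
      · norm_num
      · push_cast
        nlinarith [(n.cast_nonneg : (0 : ℝ) ≤ n)]
    · rw [sum_eq_zero fun R hR => if_neg fun h5 => h4 ((h2 R hR).2 c h5)]
      simp
  have e4 := sum_le_sum fun c (_ : c ∈ (univ : Finset (Λ → Fin q))) => e3 c
  rw [sum_sub_distrib, ← mul_sum, ← mul_sum, e1, sum_boole] at e4
  simp only [filter_mem_eq_inter, univ_inter] at e4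
  have e5 : s ≤ 2 * (S.card : ℝ) := by linarith
  rw [Fintype.card_fun, Fintype.card_fin]
  rw [hs] at e5
  exact_mod_cast e5

/-- Discretisation: labels from a finite description. -/
theorem close {X U Θ : Type} [Fintype X] [Fintype Θ] [DecidableEq Θ] (f : U → X → ℝ)
    (F : U → Θ → ℝ) (hF : ∀ u θ, |F u θ| ≤ 3) {ε : ℝ} {D : ℕ} (hD : 0 < D) (y y' : X → ℝ)
    (τ τ' : X → Θ) (h : ∀ u, ∑ x, |y x| * |f u x - F u (τ x)| ≤ ε)
    (h' : ∀ u, ∑ x, |y' x| * |f u x - F u (τ' x)| ≤ ε)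
    (he : ∀ θ, ⌊(D : ℝ) * ∑ x with τ x = θ, y x⌋ = ⌊(D : ℝ) * ∑ x with τ' x = θ, y' x⌋) (u : U) :
    |∑ x, f u x * (y x - y' x)| ≤ 2 * ε + 3 * Fintype.card Θ / D := by
  have hD' : (0 : ℝ) < D := by exact_mod_cast hD
  have h1 : ∀ (y : X → ℝ) (τ : X → Θ), ∑ x, F u (τ x) * y x =
      ∑ θ, F u θ * ∑ x with τ x = θ, y x := fun y τ => by
    rw [← sum_fiberwise univ τ]
    refine sum_congr rfl fun θ _ => ?_
    rw [mul_sum]
    exact sum_congr rfl fun x hx => by rw [(mem_filter.1 hx).2]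
  have h2 : ∑ x, f u x * (y x - y' x) = ∑ x, y x * (f u x - F u (τ x)) -
      ∑ x, y' x * (f u x - F u (τ' x)) +
      ∑ θ, F u θ * (∑ x with τ x = θ, y x - ∑ x with τ' x = θ, y' x) := by
    simp only [mul_sub, sum_sub_distrib]
    rw [← h1, ← h1]
    simp only [mul_comm (y _), mul_comm (y' _)]
    ring
  have h3 : |∑ x, y x * (f u x - F u (τ x))| ≤ ε :=
    (abs_sum_le_sum_abs _ _).trans (by simpa only [abs_mul] using h u)
  have h4 : |∑ x, y' x * (f u x - F u (τ' x))| ≤ ε :=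
    (abs_sum_le_sum_abs _ _).trans (by simpa only [abs_mul] using h' u)
  have h5 : |∑ θ, F u θ * (∑ x with τ x = θ, y x - ∑ x with τ' x = θ, y' x)| ≤
      3 * Fintype.card Θ / D := by
    refine (abs_sum_le_sum_abs _ _).trans ((sum_le_sum (g := fun _ => 3 / (D : ℝ))
      fun θ _ => ?_).trans (le_of_eq ?_))
    · have h6 := (Int.abs_sub_lt_one_of_floor_eq_floor (he θ)).le
      rw [← mul_sub, abs_mul, abs_of_pos hD', ← le_div_iff₀' hD'] at h6
      rw [abs_mul]
      calc _ ≤ 3 * (1 / (D : ℝ)) := mul_le_mul (hF u θ) h6 (abs_nonneg _) (by norm_num)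
        _ = _ := by ring
    · rw [sum_const, card_univ, nsmul_eq_mul]
      ring
  rw [h2]
  have h6 := abs_add_le (∑ x, y x * (f u x - F u (τ x)) - ∑ x, y' x * (f u x - F u (τ' x)))
    (∑ θ, F u θ * (∑ x with τ x = θ, y x - ∑ x with τ' x = θ, y' x))
  have h7 := abs_sub (∑ x, y x * (f u x - F u (τ x))) (∑ x, y' x * (f u x - F u (τ' x)))
  linarith

theorem floor_mem {X : Type} [Fintype X] (D : ℕ) {y : X → ℝ} (hy : ∑ x, |y x| ≤ 1)
    (T : Finset X) : ⌊(D : ℝ) * ∑ x ∈ T, y x⌋ ∈ Icc (-(D : ℤ)) D := by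
  have h1 : |∑ x ∈ T, y x| ≤ 1 := (abs_sum_le_sum_abs _ _).trans
    ((sum_le_sum_of_subset_of_nonneg (subset_univ T) fun x _ _ => abs_nonneg _).trans hy)
  have hD : (0 : ℝ) ≤ D := D.cast_nonneg
  rw [abs_le] at h1
  rw [mem_Icc]
  constructor
  · rw [Int.le_floor]
    push_cast
    nlinarith [h1.1]
  · rw [← Int.floor_natCast (R := ℝ) D]
    exact Int.floor_le_floor (by nlinarith [h1.2])

end Crest.Agent.R71
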