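import Mathlib
import Crest.Prelude.Def_Polar

/-!
# Row 71 (failure of the duality of metric entropy): the geometric reduction

From a finite class of functions `f u : X → ℝ` to a convex body.
-/

set_option autoImplicit false

namespace Crest.Agent.R71

open Pointwise Crest.AnalysisR

theorem inner_eq {n : ℕ} (z y : EuclideanSpace ℝ (Fin n)) : inner ℝ z y = ∑ i, z i * y i := by
  simp [PiLp.inner_apply, mul_comm]

theorem l1_of_polar {n : ℕ} {y : EuclideanSpace ℝ (Fin n)}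
    (hy : y ∈ polarSet {x : EuclideanSpace ℝ (Fin n) | ∀ i, |x i| ≤ 1}) : ∑ i, |y i| ≤ 1 := by
  have h := hy (WithLp.toLp 2 fun i => if 0 ≤ y i then 1 else -1) fun i => by
    change |if 0 ≤ y i then (1 : ℝ) else -1| ≤ 1
    split_ifs <;> simp
  rw [inner_eq] at h
  refine le_trans (le_of_eq (Finset.sum_congr rfl fun i _ => ?_)) h
  change |y i| = (if 0 ≤ y i then (1 : ℝ) else -1) * y i
  split_ifs with hi
  · rw [abs_of_nonneg hi, one_mul]
  · rw [abs_of_neg (not_le.1 hi), neg_one_mul]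

theorem norm_le_l1 {n : ℕ} (y : EuclideanSpace ℝ (Fin n)) : ‖y‖ ≤ ∑ i, |y i| := by
  rw [EuclideanSpace.norm_eq]
  refine Real.sqrt_le_iff.2 ⟨Finset.sum_nonneg fun i _ => abs_nonneg _, ?_⟩
  simp only [Real.norm_eq_abs]
  exact Finset.sum_sq_le_sq_sum_of_nonneg fun i _ => abs_nonneg _

/-- The body. -/
def body {n : ℕ} {U : Type} (f : U → EuclideanSpace ℝ (Fin n)) (η : ℝ) :
    Set (EuclideanSpace ℝ (Fin n)) :=
  {z | ∀ (y : EuclideanSpace ℝ (Fin n)) (c : ℝ), 0 ≤ c → (∀ u, |inner ℝ (f u) y| ≤ c) →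
    inner ℝ z y ≤ c + η * ‖y‖}

theorem body_convex {n : ℕ} {U : Type} (f : U → EuclideanSpace ℝ (Fin n)) (η : ℝ) :
    Convex ℝ (body f η) := by
  intro z hz z' hz' s t hs ht hst y c hc h
  rw [inner_add_left, real_inner_smul_left, real_inner_smul_left]
  have h1 := mul_le_mul_of_nonneg_left (hz y c hc h) hs
  have h2 := mul_le_mul_of_nonneg_left (hz' y c hc h) ht
  calc _ ≤ s * (c + η * ‖y‖) + t * (c + η * ‖y‖) := add_le_add h1 h2
    _ = _ := by rw [← add_mul, hst, one_mul]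

theorem body_compact {n : ℕ} {U : Type} [Fintype U] (f : U → EuclideanSpace ℝ (Fin n)) {η : ℝ}
    (hη : 0 ≤ η) : IsCompact (body f η) := by
  refine Metric.isCompact_of_isClosed_isBounded ?_ ?_
  · have : body f η = ⋂ (y : EuclideanSpace ℝ (Fin n)) (c : ℝ) (_ : 0 ≤ c)
        (_ : ∀ u, |inner ℝ (f u) y| ≤ c), {z | inner ℝ z y ≤ c + η * ‖y‖} := by
      ext z
      simp [body]
    rw [this]
    refine isClosed_iInter fun y => isClosed_iInter fun c => isClosed_iInter fun _ =>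
      isClosed_iInter fun _ => isClosed_le (by fun_prop) continuous_const
  · refine (Metric.isBounded_closedBall (x := 0) (r := ∑ u, ‖f u‖ + η)).subset fun z hz => ?_
    rw [mem_closedBall_zero_iff]
    have h0 : 0 ≤ ∑ u, ‖f u‖ := Finset.sum_nonneg fun u _ => norm_nonneg _
    have h := hz z ((∑ u, ‖f u‖) * ‖z‖) (mul_nonneg h0 (norm_nonneg _)) fun u =>
      (abs_real_inner_le_norm _ _).trans (mul_le_mul_of_nonneg_right
        (Finset.single_le_sum (f := fun u => ‖f u‖) (fun u _ => norm_nonneg _) (Finset.mem_univ u))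
        (norm_nonneg _))
    rw [real_inner_self_eq_norm_sq] at h
    generalize ∑ u, ‖f u‖ = A at h0 h ⊢
    rcases (norm_nonneg z).eq_or_lt with h1 | h1
    · rw [← h1]; exact add_nonneg h0 hη
    · refine le_of_mul_le_mul_right ?_ h1
      rw [add_mul, ← sq]
      exact h

theorem body_interior {n : ℕ} {U : Type} (f : U → EuclideanSpace ℝ (Fin n)) {η : ℝ}
    (hη : 0 < η) : (interior (body f η)).Nonempty := by
  refine ⟨0, mem_interior_iff_mem_nhds.2 (Filter.mem_of_superset (Metric.ball_mem_nhds 0 hη)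
    fun z hz y c hc _ => ?_)⟩
  rw [mem_ball_zero_iff] at hz
  have h1 := real_inner_le_norm z y
  have h2 := mul_le_mul_of_nonneg_right hz.le (norm_nonneg y)
  linarith

theorem body_neg {n : ℕ} {U : Type} (f : U → EuclideanSpace ℝ (Fin n)) (η : ℝ) :
    ∀ z ∈ body f η, -z ∈ body f η := by
  intro z hz y c hc h
  have := hz (-y) c hc fun u => by rw [inner_neg_right, abs_neg]; exact h u
  rwa [inner_neg_right, norm_neg, ← inner_neg_left] at this

theorem mem_body {n : ℕ} {U : Type} (f : U → EuclideanSpace ℝ (Fin n)) {η : ℝ} (hη : 0 ≤ η)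
    (u : U) : f u ∈ body f η := fun y c _ h => by
  have h1 := (le_abs_self _).trans (h u)
  have h2 := mul_nonneg hη (norm_nonneg y)
  linarith

theorem geom_fin {n : ℕ} {U Lb : Type} [Fintype U] (f : U → Fin n → ℝ) {a b : ℝ} (ha : 1 ≤ a)
    (hb : 0 ≤ b) (𝓛 : Finset Lb) (Rel : Lb → (Fin n → ℝ) → Prop)
    (h1 : ∀ y : Fin n → ℝ, ∑ x, |y x| ≤ 1 → ∃ l ∈ 𝓛, Rel l y)
    (h2 : ∀ l y y', Rel l y → Rel l y' → ∀ u, |∑ x, f u x * (y x - y' x)| ≤ 1 / (2 * a))
    (M : ℕ) (h3 : ∀ I : Finset U, (∀ u ∈ I, ∀ u' ∈ I, ∀ x, f u x - f u' x ≤ 2) → I.card ≤ M)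
    (h4 : ∀ k : ℕ, Fintype.card U ≤ k * M → b * Real.log 𝓛.card < Real.log k) :
    ∃ K : Set (EuclideanSpace ℝ (Fin n)),
      Convex ℝ K ∧ IsCompact K ∧ (interior K).Nonempty ∧ (∀ x ∈ K, -x ∈ K) ∧
      ∃ t₁ : Finset (EuclideanSpace ℝ (Fin n)),
        polarSet {x : EuclideanSpace ℝ (Fin n) | ∀ i, |x i| ≤ 1} ⊆
          ⋃ y ∈ t₁, (y +ᵥ a⁻¹ • polarSet K) ∧
        ∀ t₂ : Finset (EuclideanSpace ℝ (Fin n)),
          K ⊆ ⋃ x ∈ t₂, (x +ᵥ {z : EuclideanSpace ℝ (Fin n) | ∀ i, |z i| ≤ 1}) →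
          b * Real.log t₁.card < Real.log t₂.card := by
  classical
  have ha0 : 0 < a := by linarith
  have hη : 0 < 1 / (4 * a) := by positivity
  let F : U → EuclideanSpace ℝ (Fin n) := fun u => WithLp.toLp 2 (f u)
  let rep : Lb → EuclideanSpace ℝ (Fin n) := fun l =>
    if h : ∃ y : EuclideanSpace ℝ (Fin n), ∑ x, |y x| ≤ 1 ∧ Rel l y then h.choose else 0
  refine ⟨body F (1 / (4 * a)), body_convex _ _, body_compact _ hη.le, body_interior _ hη,
    body_neg _ _, 𝓛.image rep, fun y hy => ?_, fun t₂ ht₂ => ?_⟩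
  · have hy1 := l1_of_polar hy
    obtain ⟨l, hl, hR⟩ := h1 y hy1
    have hex : ∃ y : EuclideanSpace ℝ (Fin n), ∑ x, |y x| ≤ 1 ∧ Rel l y := ⟨y, hy1, hR⟩
    have hrep : ∑ x, |rep l x| ≤ 1 ∧ Rel l (rep l) := by
      simp only [rep, dif_pos hex]
      exact hex.choose_spec
    simp only [Set.mem_iUnion]
    refine ⟨rep l, Finset.mem_image_of_mem _ hl, y - rep l, ⟨a • (y - rep l), fun z hz => ?_, ?_⟩,
      ?_⟩
    · have h5 := hz (y - rep l) (1 / (2 * a)) (by positivity) fun u => by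
        rw [inner_eq]
        exact h2 l y (rep l) hR hrep.2 u
      have h6 : ‖y - rep l‖ ≤ 2 := by
        linarith [norm_sub_le y (rep l), norm_le_l1 y, norm_le_l1 (rep l), hrep.1]
      have h7 := mul_le_mul_of_nonneg_left h6 hη.le
      rw [real_inner_smul_right]
      calc a * inner ℝ z (y - rep l) ≤ a * (1 / (2 * a) + 1 / (4 * a) * 2) :=
            mul_le_mul_of_nonneg_left (by linarith) ha0.le
        _ = 1 := by field_simp; norm_num
    · simp only [smul_smul, inv_mul_cancel₀ ha0.ne', one_smul]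
    · simp
  · have h5 : ∀ u, ∃ x ∈ t₂, ∀ i, |f u i - x i| ≤ 1 := fun u => by
      have := ht₂ (mem_body F hη.le u)
      simp only [Set.mem_iUnion] at this
      obtain ⟨x, hx, z, hz, he⟩ := this
      refine ⟨x, hx, fun i => ?_⟩
      have h6 : x i + z i = f u i := congrArg (fun w : EuclideanSpace ℝ (Fin n) => w i) he
      rw [← h6, add_sub_cancel_left]
      exact hz i
    choose g hg hg' using h5
    have h6 : Fintype.card U ≤ t₂.card * M := by
      rw [mul_comm]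
      refine Finset.card_le_mul_card_image_of_maps_to (s := Finset.univ) (f := g)
        (fun u _ => hg u) M fun x _ => h3 _ fun u hu u' hu' i => ?_
      have e1 := (Finset.mem_filter.1 hu).2
      have e2 := (Finset.mem_filter.1 hu').2
      have h7 := abs_le.1 (hg' u i)
      have h8 := abs_le.1 (hg' u' i)
      rw [e1] at h7
      rw [e2] at h8
      linarith [h7.2, h8.1]
    refine lt_of_le_of_lt (mul_le_mul_of_nonneg_left ?_ hb) (h4 _ h6)
    obtain ⟨l, hl, -⟩ := h1 0 (by simp)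
    refine Real.log_le_log ?_ (by exact_mod_cast Finset.card_image_le)
    exact_mod_cast Finset.card_pos.2 ⟨_, Finset.mem_image_of_mem _ hl⟩

theorem geom {X U Lb : Type} [Fintype X] [Nonempty X] [Fintype U] (f : U → X → ℝ) {a b : ℝ}
    (ha : 1 ≤ a) (hb : 0 ≤ b) (𝓛 : Finset Lb) (Rel : Lb → (X → ℝ) → Prop)
    (h1 : ∀ y : X → ℝ, ∑ x, |y x| ≤ 1 → ∃ l ∈ 𝓛, Rel l y)
    (h2 : ∀ l y y', Rel l y → Rel l y' → ∀ u, |∑ x, f u x * (y x - y' x)| ≤ 1 / (2 * a))
    (M : ℕ) (h3 : ∀ I : Finset U, (∀ u ∈ I, ∀ u' ∈ I, ∀ x, f u x - f u' x ≤ 2) → I.card ≤ M)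
    (h4 : ∀ k : ℕ, Fintype.card U ≤ k * M → b * Real.log 𝓛.card < Real.log k) :
    ∃ n : ℕ, 0 < n ∧ ∃ K : Set (EuclideanSpace ℝ (Fin n)),
      Convex ℝ K ∧ IsCompact K ∧ (interior K).Nonempty ∧ (∀ x ∈ K, -x ∈ K) ∧
      ∃ t₁ : Finset (EuclideanSpace ℝ (Fin n)),
        polarSet {x : EuclideanSpace ℝ (Fin n) | ∀ i, |x i| ≤ 1} ⊆
          ⋃ y ∈ t₁, (y +ᵥ a⁻¹ • polarSet K) ∧
        ∀ t₂ : Finset (EuclideanSpace ℝ (Fin n)),
          K ⊆ ⋃ x ∈ t₂, (x +ᵥ {z : EuclideanSpace ℝ (Fin n) | ∀ i, |z i| ≤ 1}) →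
          b * Real.log t₁.card < Real.log t₂.card := by
  let e := Fintype.equivFin X
  refine ⟨Fintype.card X, Fintype.card_pos, geom_fin (fun u i => f u (e.symm i)) ha hb 𝓛
    (fun l y => Rel l fun x => y (e x)) (fun y hy => h1 _ ?_) (fun l y y' hy hy' u => ?_) M
    (fun I hI => h3 I fun u hu u' hu' x => ?_) h4⟩
  · rwa [e.sum_comp fun i => |y i|]
  · have := h2 l _ _ hy hy' u
    rwa [← e.symm.sum_comp, Finset.sum_congr rfl fun i _ => by rw [e.apply_symm_apply]] at this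
  · simpa using hI u hu u' hu' (e x)

end Crest.Agent.R71
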