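import Crest.Agent.R71.Comb

/-!
# Row 71: the agreement model

`Λ` is a finite set, `Ω = Λ → Fin q`, `Z R = {c | c = 0 on R}`.  Functions are indexed by
`u : Ω → β`, points are pairs `(I, π)` with `I ⊆ Λ` a half of `Λ` and `π : Ω → β`.  The value
`f u (I, π)` counts the levels `l < N` such that `u = π` on `Z R` for some `R ⊆ I` with at most
`3 ^ l` elements.
-/

set_option autoImplicit false

namespace Crest.Agent.R71

open Finset

variable {Λ β : Type} [Fintype Λ] [DecidableEq Λ] {q : ℕ} [NeZero q]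

/-- Halves of `Λ`. -/
abbrev Half (Λ : Type) [Fintype Λ] : Type := {I : Finset Λ // Fintype.card Λ ≤ 2 * I.card}

/-- The relation `A` holds on a subcube `Z R` with `R ⊆ I` small. -/
def Sub (ρ : ℕ) (I : Half Λ) (A : (Λ → Fin q) → Prop) : Prop :=
  ∃ R ⊆ I.1, R.card ≤ ρ ∧ ∀ c : Λ → Fin q, (∀ r ∈ R, c r = 0) → A c

open Classical in
/-- The level function. -/
noncomputable def lev (N : ℕ) (I : Half Λ) (A : (Λ → Fin q) → Prop) : ℝ :=
  3 / N * ∑ l ∈ range N, if Sub (3 ^ l) I A then 1 else 0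

/-- The class of functions. -/
noncomputable def ff (N : ℕ) (u : (Λ → Fin q) → β) (x : Half Λ × ((Λ → Fin q) → β)) : ℝ :=
  lev N x.1 fun c => u c = x.2 c

omit [DecidableEq Λ] in
theorem lev_nonneg (N : ℕ) (I : Half Λ) (A : (Λ → Fin q) → Prop) : 0 ≤ lev N I A :=
  mul_nonneg (by positivity) (sum_nonneg fun l _ => by split_ifs <;> norm_num)

omit [DecidableEq Λ] in
theorem lev_le {N : ℕ} (hN : 0 < N) (I : Half Λ) (A : (Λ → Fin q) → Prop) : lev N I A ≤ 3 := by
  classical
  have hN' : (0 : ℝ) < N := by exact_mod_cast hN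
  have h : ∑ l ∈ range N, (if Sub (3 ^ l) I A then (1 : ℝ) else 0) ≤ ∑ _l ∈ range N, 1 :=
    sum_le_sum fun l _ => by split_ifs <;> norm_num
  rw [sum_const, card_range, nsmul_eq_mul, mul_one] at h
  calc lev N I A ≤ 3 / N * N := mul_le_mul_of_nonneg_left (by convert h) (by positivity)
    _ = 3 := by field_simp

omit [DecidableEq Λ] in
theorem lev_top {N : ℕ} (hN : 0 < N) (I : Half Λ) {A : (Λ → Fin q) → Prop} (h : ∀ c, A c) :
    lev N I A = 3 := by
  have hN' : (0 : ℝ) < N := by exact_mod_cast hN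
  rw [lev, sum_congr rfl fun l _ => if_pos ⟨∅, empty_subset _, by simp, fun c _ => h c⟩,
    sum_const, card_range, nsmul_eq_mul, mul_one]
  field_simp

omit [DecidableEq Λ] in
theorem sub_of_lev {N : ℕ} {I : Half Λ} {A : (Λ → Fin q) → Prop} (h : lev N I A ≠ 0) :
    Sub (3 ^ N) I A := by
  by_contra hn
  refine h ?_
  rw [lev, sum_eq_zero, mul_zero]
  intro l hl
  refine if_neg fun ⟨R, h1, h2, h3⟩ => hn ⟨R, h1, h2.trans ?_, h3⟩
  exact Nat.pow_le_pow_right (by norm_num) (mem_range.1 hl).le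

/-- The primal bound: functions in one cube agree on half of the coordinates. -/
theorem primal [Fintype β] [Nonempty β] {N : ℕ} (hN : 0 < N)
    (hL : 2 * 3 ^ N * q ^ 3 ^ N ≤ Fintype.card Λ) (I : Finset ((Λ → Fin q) → β))
    (h : ∀ u ∈ I, ∀ u' ∈ I, ∀ x, ff N u x - ff N u' x ≤ 2) :
    I.card ≤ 2 ^ Fintype.card (Λ → Fin q) * Fintype.card β ^ (Fintype.card (Λ → Fin q) / 2) := by
  classical
  rcases I.eq_empty_or_nonempty with rfl | ⟨u₀, hu₀⟩
  · simp
  have h1 : I ⊆ (univ.filter fun T : Finset (Λ → Fin q) =>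
      T.card ≤ Fintype.card (Λ → Fin q) / 2).biUnion fun T => fixS T u₀ := by
    intro u hu
    have h2 := large (q := q) (ρ := 3 ^ N) (by positivity) hL (univ.filter fun c => u c = u₀ c)
      fun J hJ => by
        have h3 := h u₀ hu₀ u hu (⟨J, hJ⟩, u₀)
        rw [ff, lev_top hN _ fun c => rfl] at h3
        obtain ⟨R, h4, h5, h6⟩ := sub_of_lev (N := N) (I := ⟨J, hJ⟩) (A := fun c => u c = u₀ c)
          fun h0 => by
            rw [ff, h0] at h3
            norm_num at h3
        exact ⟨R, h4, h5, fun c hc => mem_filter.2 ⟨mem_univ _, h6 c hc⟩⟩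
    refine mem_biUnion.2 ⟨(univ.filter fun c => u c = u₀ c)ᶜ, mem_filter.2 ⟨mem_univ _, ?_⟩,
      mem_fixS.2 fun c hc => by simpa using hc⟩
    have h3 := card_compl_add_card (univ.filter fun c => u c = u₀ c)
    omega
  refine (card_le_card h1).trans ((card_biUnion_le_card_mul _ _ _ fun T hT => ?_).trans
    (Nat.mul_le_mul_right _ ((card_le_univ _).trans (Fintype.card_finset).le)))
  rw [card_fixS]
  exact Nat.pow_le_pow_right Fintype.card_pos (mem_filter.1 hT).2

/-- The approximating functions, which only see the known symbols `G`. -/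
noncomputable def FF {J : Type} (N : ℕ) (G : (Λ → Fin q) → J → β) (u : (Λ → Fin q) → β)
    (θ : Half Λ × ((Λ → Fin q) → Finset J)) : ℝ :=
  lev N θ.1 fun c => ∃ t ∈ θ.2 c, u c = G c t

omit [DecidableEq Λ] in
open Classical in
theorem lev_sub_le {N : ℕ} (I : Half Λ) {A A' : (Λ → Fin q) → Prop} (h : ∀ c, A' c → A c)
    (B : ℕ → Prop) (hB : ∀ l < N, Sub (3 ^ l) I A → ¬ B l → Sub (3 ^ (l + 1)) I A') :
    |lev N I A - lev N I A'| ≤ 3 / N * (1 + ∑ l ∈ range N, if B l then 1 else 0) := by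
  have h1 : ∑ l ∈ range N, (if Sub (3 ^ l) I A' then (1 : ℝ) else 0) ≤
      ∑ l ∈ range N, if Sub (3 ^ l) I A then 1 else 0 := by
    refine sum_le_sum fun l _ => ?_
    split_ifs with h2 h3
    · exact le_rfl
    · obtain ⟨R, h4, h5, h6⟩ := h2
      exact absurd ⟨R, h4, h5, fun c hc => h c (h6 c hc)⟩ h3
    · norm_num
    · exact le_rfl
  have h2 : ∑ l ∈ range N, (if Sub (3 ^ l) I A then (1 : ℝ) else 0) ≤
      ∑ l ∈ range N, ((if Sub (3 ^ (l + 1)) I A' then (1 : ℝ) else 0) + if B l then 1 else 0) := by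
    refine sum_le_sum fun l hl => ?_
    by_cases h3 : Sub (3 ^ l) I A
    · by_cases h4 : B l
      · rw [if_pos h3, if_pos h4]
        split_ifs <;> norm_num
      · rw [if_pos h3, if_pos (hB l (mem_range.1 hl) h3 h4), if_neg h4, add_zero]
    · rw [if_neg h3]
      split_ifs <;> norm_num
  have h3 := sum_range_succ (fun l => if Sub (3 ^ l) I A' then (1 : ℝ) else 0) N
  have h4 := sum_range_succ' (fun l => if Sub (3 ^ l) I A' then (1 : ℝ) else 0) N
  have h5 : (if Sub (3 ^ N) I A' then (1 : ℝ) else 0) ≤ 1 := by split_ifs <;> norm_num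
  have h6 : (0 : ℝ) ≤ if Sub (3 ^ 0) I A' then (1 : ℝ) else 0 := by split_ifs <;> norm_num
  rw [sum_add_distrib] at h2
  rw [lev, lev, ← mul_sub, abs_mul, abs_of_nonneg (by positivity : (0 : ℝ) ≤ 3 / N),
    abs_of_nonneg (sub_nonneg.2 h1)]
  exact mul_le_mul_of_nonneg_left (by linarith) (by positivity)

/-- The coordinates that vanish somewhere on `Q`. -/
def SQ {N : ℕ} (Q : Fin N → Λ) : Finset (Λ → Fin q) := univ.filter fun c => ∃ t, c (Q t) = 0

theorem card_SQ {N : ℕ} (Q : Fin N → Λ) :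
    (SQ (q := q) Q).card ≤ N * Fintype.card (Λ → Fin q) / q := by
  have hq : 0 < q := Nat.pos_of_ne_zero (NeZero.ne q)
  rw [Nat.le_div_iff_mul_le hq]
  have h1 : SQ (q := q) Q ⊆ univ.biUnion fun t => fixS {Q t}ᶜ fun _ => (0 : Fin q) := by
    intro c hc
    obtain ⟨t, ht⟩ := (mem_filter.1 hc).2
    exact mem_biUnion.2 ⟨t, mem_univ _, mem_fixS.2 fun r hr => by
      rw [notMem_compl, mem_singleton] at hr
      rw [hr, ht]⟩
  have h2 := (card_le_card h1).trans card_biUnion_le
  refine (Nat.mul_le_mul_right q h2).trans (le_of_eq ?_)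
  rw [sum_mul, sum_congr rfl (g := fun _ => Fintype.card (Λ → Fin q)) fun t _ => ?_]
  · simp
  · rw [card_fixS, Fintype.card_fin, Fintype.card_fun, Fintype.card_fin, ← pow_succ,
      ← card_singleton (Q t), card_compl_add_card]

/-- The dual bound: a signed measure is described by few symbols. -/
theorem dual [Fintype β] [Nonempty Λ] (d : β) {N : ℕ} (hN : 0 < N)
    (y : Half Λ × ((Λ → Fin q) → β) → ℝ) (hy : ∑ x, |y x| ≤ 1) :
    ∃ (Q : Fin N → Λ) (G : (Λ → Fin q) → Fin N × Fin N → β), G ∈ fixS (SQ Q) (fun _ _ => d) ∧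
      ∃ τ : Half Λ × ((Λ → Fin q) → β) → Half Λ × ((Λ → Fin q) → Finset (Fin N × Fin N)),
        ∀ u, ∑ x, |y x| * |ff N u x - FF N G u (τ x)| ≤ 12 / N := by
  classical
  have hN' : (0 : ℝ) < N := by exact_mod_cast hN
  haveI : Nonempty β := ⟨d⟩
  obtain ⟨Q, hQ⟩ := greedy (fun x => |y x|) (fun x => abs_nonneg _) hy
    (fun (r : Λ) x => r ∈ x.1.1) hN
  choose g hg using fun l : Fin N => greedy (fun x => |y x|) (fun x => abs_nonneg _) hy
    (fun (u : (Λ → Fin q) → β) x => Sub (3 ^ (l : ℕ)) x.1 fun c => u c = x.2 c) hN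
  have hQ' : ∑ x, (if ∀ t, Q t ∉ x.1.1 then |y x| else 0) ≤ 2 / (N : ℝ) := by
    have hL : (0 : ℝ) < Fintype.card Λ := by exact_mod_cast Fintype.card_pos
    have h1 := sum_le_sum fun r (_ : r ∈ (univ : Finset Λ)) => hQ r
    rw [sum_const, card_univ, nsmul_eq_mul, sum_comm] at h1
    have h2 : (Fintype.card Λ : ℝ) * ∑ x, (if ∀ t, Q t ∉ x.1.1 then |y x| else 0) ≤
        2 * (Fintype.card Λ * (1 / N)) := by
      refine le_trans ?_ (mul_le_mul_of_nonneg_left h1 (by norm_num))
      rw [mul_sum, mul_sum]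
      refine sum_le_sum fun x _ => ?_
      by_cases h3 : ∀ t, Q t ∉ x.1.1
      · have h4 : (Fintype.card Λ : ℝ) ≤ 2 * x.1.1.card := by exact_mod_cast x.1.2
        simp only [h3, not_false_eq_true, implies_true, and_true, if_true]
        rw [sum_ite_mem, univ_inter, sum_const, nsmul_eq_mul, ← mul_assoc]
        exact mul_le_mul_of_nonneg_right h4 (abs_nonneg _)
      · rw [if_neg h3, mul_zero]
        exact mul_nonneg (by norm_num) (sum_nonneg fun r _ => by split_ifs <;> simp)
    refine le_of_mul_le_mul_left (h2.trans (le_of_eq ?_)) hL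
    ring
  let G : (Λ → Fin q) → Fin N × Fin N → β := fun c t => if c ∈ SQ Q then g t.1 t.2 c else d
  refine ⟨Q, G, mem_fixS.2 fun c hc => funext fun t => if_neg hc,
    fun x => (x.1, fun c => univ.filter fun t => x.2 c = G c t), fun u => ?_⟩
  let B : Half Λ × ((Λ → Fin q) → β) → ℕ → Prop := fun x l => (∀ t, Q t ∉ x.1.1) ∨
    ∃ hl : l < N, (Sub (3 ^ l) x.1 fun c => u c = x.2 c) ∧
      ∀ t, ¬ Sub (3 ^ l) x.1 fun c => g ⟨l, hl⟩ t c = x.2 c
  have h1 : ∀ x, |ff N u x - FF N G u (x.1, fun c => univ.filter fun t => x.2 c = G c t)| ≤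
      3 / N * (1 + ∑ l ∈ range N, if B x l then 1 else 0) := by
    intro x
    have := lev_sub_le (N := N) x.1 (A := fun c => u c = x.2 c)
      (A' := fun c => ∃ t ∈ univ.filter fun t => x.2 c = G c t, u c = G c t)
      (fun c ⟨t, ht, h⟩ => h.trans (mem_filter.1 ht).2.symm) (B x) fun l hl hS hB => by
        simp only [B, not_or, not_forall, not_exists, not_and, not_not] at hB
        obtain ⟨⟨t₀, ht₀⟩, hB⟩ := hB
        obtain ⟨t, R', h2, h3, h4⟩ := hB hl hS
        obtain ⟨R, h5, h6, h7⟩ := hS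
        refine ⟨insert (Q t₀) (R ∪ R'), insert_subset ht₀ (union_subset h5 h2), ?_,
          fun c hc => ?_⟩
        · have h8 := card_insert_le (Q t₀) (R ∪ R')
          have h9 := card_union_le R R'
          have h10 : 0 < 3 ^ l := by positivity
          rw [pow_succ]
          omega
        · have h8 : c ∈ SQ Q := mem_filter.2 ⟨mem_univ _, t₀, hc _ (mem_insert_self _ _)⟩
          have h9 := h7 c fun r hr => hc r (mem_insert_of_mem (mem_union_left _ hr))
          have h10 := h4 c fun r hr => hc r (mem_insert_of_mem (mem_union_right _ hr))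
          have h11 : G c (⟨l, hl⟩, t) = x.2 c := by
            simp only [G, if_pos h8]
            exact h10
          exact ⟨(⟨l, hl⟩, t), mem_filter.2 ⟨mem_univ _, h11.symm⟩, h9.trans h11.symm⟩
    rw [ff, FF]
    convert this
  have h2 : ∀ l ∈ range N, ∑ x, |y x| * (if B x l then (1 : ℝ) else 0) ≤ 3 / N := by
    intro l hl
    have h3 := add_le_add hQ' (hg ⟨l, mem_range.1 hl⟩ u)
    rw [← sum_add_distrib] at h3
    refine le_trans (sum_le_sum fun x _ => ?_) (h3.trans (le_of_eq (by ring)))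
    have h4 := abs_nonneg (y x)
    by_cases h5 : B x l
    · rw [if_pos h5, mul_one]
      rcases h5 with h5 | ⟨_, h5⟩
      · rw [if_pos h5]
        split_ifs <;> linarith
      · rw [if_pos h5]
        split_ifs <;> linarith
    · rw [if_neg h5, mul_zero]
      split_ifs <;> linarith
  have h3 := sum_le_sum h2
  rw [sum_const, card_range, nsmul_eq_mul, sum_comm, mul_div_cancel₀ _ hN'.ne'] at h3
  calc _ ≤ ∑ x, |y x| * (3 / N * (1 + ∑ l ∈ range N, if B x l then 1 else 0)) :=
        sum_le_sum fun x _ => mul_le_mul_of_nonneg_left (h1 x) (abs_nonneg _)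
    _ = 3 / N * (∑ x, |y x| + ∑ x, ∑ l ∈ range N, |y x| * if B x l then 1 else 0) := by
        rw [← sum_add_distrib, mul_sum]
        refine sum_congr rfl fun x _ => ?_
        rw [← mul_sum]
        ring
    _ ≤ 3 / N * (1 + 3) := mul_le_mul_of_nonneg_left (add_le_add hy h3) (by positivity)
    _ = 12 / N := by ring

end Crest.Agent.R71
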